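import Vale.Agent.P207.N3.H76.Ext

/-!
# P207, line N3, row R19 (MASS): the geometric input (DIR) at one base point

`dr η` is the initial direction of the ray from the base point to `η`, read in a fixed orthonormal
frame. `dir`: for every direction `v` there is a frame `x` over the base point with first vector
`v`; `R` is the change of frames. In the frame `x` the direction of `e x u` is
`e₀ + (0, r₀ S u) + o(u)`.
-/

open Set Filter Topology Metric MeasureTheory
open scoped ContDiff

noncomputable section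

namespace Vale.Agent.P207.N3.H546

open Vale.Agent.P207.N3.H76 (pk tl e0 sg)

variable {Γ X B : Type} [Group Γ] [MetricSpace X] [ProperSpace X] [MulAction Γ X]
  [IsIsometricSMul Γ X] [TopologicalSpace B] [CompactSpace B] [T2Space B] [MulAction Γ B]
  [ContinuousConstSMul Γ B]

/-- `u ↦ (0, u)` -/
def pk0 : E2 →L[ℝ] E3 := LinearMap.toContinuousLinearMap (H76.pkL ∘ₗ LinearMap.inr ℝ ℝ E2)

theorem pk0_apply (u : E2) : pk0 u = pk 0 u := rfl

/-- The input (DIR); `G v` is the density of the visual measure at the direction `v`. -/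
structure DirIn (L : Leaf Γ X B) [MeasurableSpace B] [BorelSpace B] (A : Area L) (G : E3 → ℝ) where
  dr : B → E3
  dr_cont : Continuous dr
  norm_dr : ∀ η, ‖dr η‖ = 1
  r₀ : ℝ
  r₀_pos : 0 < r₀
  dir : ∀ v : E3, ‖v‖ = 1 → ∃ (x : X) (R : O3) (S : E2 →L[ℝ] E2),
    R e0 = v ∧ dr (L.ep x) = v ∧ L.lv x = 0 ∧ L.lp x = 0 ∧ S.det ≠ 0 ∧
      HasFDerivAt (fun u => R.symm (dr (L.e x u))) (pk0 ∘L (r₀ • S)) 0 ∧
      A.s x 0 = r₀ ^ 2 * (G v * |S.det|)

end Vale.Agent.P207.N3.H546
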