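import Vale.Agent.P207.Q.H791.MaxP

/-!
# P207, line N3, package P9: the final inequality, abstract form

`U = (u v; v w)` is the unstable Riccati tensor, `S = U + U ∘ σ`, `log det S = r + r ∘ σ`,
`∫ tr U = h`, `∫ e^r / det S ≤ 1 / h`.  Then `S = h Id`, `U = (h / 2) Id` and the curvature is
`(h / 2) ^ 2 Id`.
-/

open MeasureTheory Filter Topology Set

noncomputable section

namespace Vale.Agent.P207.N3.H546

open Vale.Agent.P207.Q.H791 (RicC)

/-- the pointwise inequality: `2 / h - s / h ^ 2 ≤ 1 / s ≤ 1 / √D ≤ (e^r + e^{r'}) / (2 D)` -/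
theorem pointwise {a b c r r' h : ℝ} (hh : 0 < h) (hs : 0 < a + c) (hD : 0 < a * c - b * b)
    (hr : Real.log (a * c - b * b) = r + r') :
    0 ≤ (Real.exp r + Real.exp r') / (2 * (a * c - b * b)) - (2 / h - (a + c) / 2 / h ^ 2) := by
  set D := a * c - b * b with hDd
  set s := (a + c) / 2 with hsd
  have hs0 : 0 < s := by rw [hsd]; linarith
  have hDs : D ≤ s ^ 2 := by
    rw [hDd, hsd]; nlinarith [sq_nonneg (a - c), sq_nonneg b]
  set q := Real.sqrt D with hq
  have hq0 : 0 < q := Real.sqrt_pos.2 hD
  have hqq : q * q = D := Real.mul_self_sqrt hD.le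
  have hqs : q ≤ s := by nlinarith
  have hexp : Real.exp r * Real.exp r' = D := by
    rw [← Real.exp_add, ← hr, Real.exp_log hD]
  have h1 : 2 * q ≤ Real.exp r + Real.exp r' := by
    have e1 := Real.exp_pos r
    have e2 := Real.exp_pos r'
    nlinarith [sq_nonneg (Real.exp r - Real.exp r')]
  have h2 : 1 / s ≤ (Real.exp r + Real.exp r') / (2 * D) := by
    have h3 : 1 / s ≤ 1 / q := one_div_le_one_div_of_le hq0 hqs
    refine h3.trans ?_
    rw [div_le_div_iff₀ hq0 (by positivity), ← hqq]
    nlinarith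
  have h4 : 2 / h - s / h ^ 2 ≤ 1 / s := by
    have h5 : 1 / s - (2 / h - s / h ^ 2) = (s - h) ^ 2 / (s * h ^ 2) := by
      field_simp; ring
    have h6 : 0 ≤ (s - h) ^ 2 / (s * h ^ 2) := by positivity
    linarith
  linarith

/-- the equality case -/
theorem pointwise_eq {a b c r r' h : ℝ} (hh : 0 < h) (hs : 0 < a + c) (hD : 0 < a * c - b * b)
    (hr : Real.log (a * c - b * b) = r + r')
    (he : (Real.exp r + Real.exp r') / (2 * (a * c - b * b)) -
      (2 / h - (a + c) / 2 / h ^ 2) = 0) : a = h ∧ b = 0 ∧ c = h := by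
  set D := a * c - b * b with hDd
  set s := (a + c) / 2 with hsd
  have hs0 : 0 < s := by rw [hsd]; linarith
  have hDs : s ^ 2 - D = ((a - c) / 2) ^ 2 + b ^ 2 := by
    rw [hDd, hsd]; ring
  have hDs' : D ≤ s ^ 2 := by
    have : 0 ≤ ((a - c) / 2) ^ 2 + b ^ 2 := by positivity
    linarith
  set q := Real.sqrt D with hq
  have hq0 : 0 < q := Real.sqrt_pos.2 hD
  have hqq : q * q = D := Real.mul_self_sqrt hD.le
  have hqs : q ≤ s := by nlinarith
  have hexp : Real.exp r * Real.exp r' = D := by
    rw [← Real.exp_add, ← hr, Real.exp_log hD]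
  have h1 : 2 * q ≤ Real.exp r + Real.exp r' := by
    have e1 := Real.exp_pos r
    have e2 := Real.exp_pos r'
    nlinarith [sq_nonneg (Real.exp r - Real.exp r')]
  have h2 : 1 / q ≤ (Real.exp r + Real.exp r') / (2 * D) := by
    rw [div_le_div_iff₀ hq0 (by positivity), ← hqq]
    nlinarith
  have h3 : 1 / s ≤ 1 / q := one_div_le_one_div_of_le hq0 hqs
  have h5 : 1 / s - (2 / h - s / h ^ 2) = (s - h) ^ 2 / (s * h ^ 2) := by
    field_simp; ring
  have h6 : 0 ≤ (s - h) ^ 2 / (s * h ^ 2) := by positivity
  have h7 : (s - h) ^ 2 / (s * h ^ 2) = 0 := by linarith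
  have h8 : s = h := by
    rcases div_eq_zero_iff.1 h7 with h9 | h9
    · have := pow_eq_zero_iff (two_ne_zero) |>.1 h9
      linarith
    · have : 0 < s * h ^ 2 := by positivity
      linarith
  have h10 : 1 / q = 1 / s := by
    have : 1 / q - 1 / s = 0 := by linarith
    linarith
  have h11 : q = s := by
    rw [div_eq_div_iff hq0.ne' hs0.ne'] at h10
    linarith
  have h12 : ((a - c) / 2) ^ 2 + b ^ 2 = 0 := by
    rw [← hDs, ← hqq, h11]; ring
  obtain ⟨h16, h17⟩ := (add_eq_zero_iff_of_nonneg (sq_nonneg _) (sq_nonneg _)).1 h12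
  have h13 : b = 0 := pow_eq_zero_iff (two_ne_zero) |>.1 h17
  have h14 : (a - c) / 2 = 0 := pow_eq_zero_iff (two_ne_zero) |>.1 h16
  have h15 : (a + c) / 2 = h := h8
  exact ⟨by linarith, h13, by linarith⟩

variable {P : Type*} [TopologicalSpace P] [CompactSpace P] [MeasurableSpace P]
  [OpensMeasurableSpace P] {m : Measure P} [IsProbabilityMeasure m] [m.IsOpenPosMeasure]

omit [m.IsOpenPosMeasure] in
theorem integrable_of_cont {f : P → ℝ} (hf : Continuous f) : Integrable f m := by
  let F : C(P, ℝ) := ⟨f, hf⟩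
  have : Integrable (fun x => F x) m := by
    refine Integrable.mono' (integrable_const ‖F‖) hf.aestronglyMeasurable
      (Eventually.of_forall fun x => F.norm_coe_le_norm x)
  exact this

/-- **The final inequality.** `S = h Id`. -/
theorem S_const {σ : P → P} (hσc : Continuous σ) (hσi : ∀ x, σ (σ x) = x)
    (hσ : ∀ f : P → ℝ, Continuous f → ∫ x, f (σ x) ∂m = ∫ x, f x ∂m)
    {u v w r : P → ℝ} (hu : Continuous u) (hv : Continuous v) (hw : Continuous w)
    (hr : Continuous r) {h : ℝ}
    (htr : ∀ x, 0 < u x + w x)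
    (hD : ∀ x, 0 < (u x + u (σ x)) * (w x + w (σ x)) - (v x + v (σ x)) * (v x + v (σ x)))
    (hlog : ∀ x, Real.log ((u x + u (σ x)) * (w x + w (σ x)) -
      (v x + v (σ x)) * (v x + v (σ x))) = r x + r (σ x))
    (hint : ∫ x, (u x + w x) ∂m = h)
    (hF : ∫ x, Real.exp (r x) / ((u x + u (σ x)) * (w x + w (σ x)) -
      (v x + v (σ x)) * (v x + v (σ x))) ∂m ≤ 1 / h) (x : P) :
    u x + u (σ x) = h ∧ v x + v (σ x) = 0 ∧ w x + w (σ x) = h := by
  set D : P → ℝ := fun x => (u x + u (σ x)) * (w x + w (σ x)) -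
    (v x + v (σ x)) * (v x + v (σ x)) with hDdef
  have hDc : Continuous D := by
    have h1 := hu.comp hσc
    have h2 := hv.comp hσc
    have h3 := hw.comp hσc
    exact ((hu.add h1).mul (hw.add h3)).sub ((hv.add h2).mul (hv.add h2))
  have hDσ : ∀ x, D (σ x) = D x := fun x => by
    simp only [hDdef, hσi]; ring
  have hh : 0 < h := by
    rw [← hint]
    have h1 : Continuous fun x => u x + w x := hu.add hw
    rw [integral_pos_iff_support_of_nonneg (fun x => (htr x).le) (integrable_of_cont h1)]
    have h2 : Function.support (fun x => u x + w x) = univ := by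
      ext x
      simpa using (htr x).ne'
    rw [h2]
    simp
  have hrc : Continuous fun x => Real.exp (r x) / D x :=
    (Real.continuous_exp.comp hr).div hDc fun x => (hD x).ne'
  have hrc' : Continuous fun x => Real.exp (r (σ x)) / D x :=
    (Real.continuous_exp.comp (hr.comp hσc)).div hDc fun x => (hD x).ne'
  have e1 : ∫ x, Real.exp (r (σ x)) / D x ∂m = ∫ x, Real.exp (r x) / D x ∂m := by
    rw [← hσ _ hrc]
    refine integral_congr_ae (Eventually.of_forall fun x => ?_)
    simp only [hDσ]
  have e2 : ∫ x, (u (σ x) + w (σ x)) ∂m = h := by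
    rw [← hint]
    exact hσ (fun x => u x + w x) (hu.add hw)
  set G : P → ℝ := fun x => (Real.exp (r x) + Real.exp (r (σ x))) / (2 * D x) -
    (2 / h - ((u x + u (σ x)) + (w x + w (σ x))) / 2 / h ^ 2) with hG
  have hGc : Continuous G := by
    refine Continuous.sub ?_ ?_
    · refine Continuous.div ((Real.continuous_exp.comp hr).add
        (Real.continuous_exp.comp (hr.comp hσc))) (continuous_const.mul hDc) fun x => ?_
      have := hD x
      positivity
    · refine continuous_const.sub ?_
      exact ((((hu.add (hu.comp hσc)).add (hw.add (hw.comp hσc))).div_const _).div_const _)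
  have hG0 : ∀ x, 0 ≤ G x := fun x =>
    pointwise hh (by linarith [htr x, htr (σ x)]) (hD x) (hlog x)
  have hGi : ∫ x, G x ∂m ≤ 0 := by
    have e3 : ∀ x, G x = (1 / 2) * (Real.exp (r x) / D x) + (1 / 2) * (Real.exp (r (σ x)) / D x) -
        2 / h + (1 / (2 * h ^ 2)) * (u x + w x) + (1 / (2 * h ^ 2)) * (u (σ x) + w (σ x)) := by
      intro x
      have := (hD x).ne'
      simp only [hG]
      change D x ≠ 0 at this
      field_simp
      ring
    have i1 : Integrable (fun x => Real.exp (r x) / D x) m := integrable_of_cont hrc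
    have i2 : Integrable (fun x => Real.exp (r (σ x)) / D x) m := integrable_of_cont hrc'
    have i3 : Integrable (fun x => u x + w x) m := integrable_of_cont (hu.add hw)
    have i4 : Integrable (fun x => u (σ x) + w (σ x)) m :=
      integrable_of_cont ((hu.comp hσc).add (hw.comp hσc))
    simp_rw [e3]
    rw [integral_add, integral_add, integral_sub, integral_add, integral_const_mul,
      integral_const_mul, integral_const_mul, integral_const_mul, e1, e2, hint]
    · simp only [integral_const, probReal_univ, smul_eq_mul, one_mul]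
      have h4 : (1 / (2 * h ^ 2)) * h = 1 / (2 * h) := by field_simp
      rw [h4]
      have h5 : 2 / h = 1 / h + 1 / (2 * h) + 1 / (2 * h) := by field_simp; norm_num
      rw [h5]
      linarith
    · exact i1.const_mul _
    · exact i2.const_mul _
    · exact (i1.const_mul _).add (i2.const_mul _)
    · exact integrable_const _
    · exact ((i1.const_mul _).add (i2.const_mul _)).sub (integrable_const _)
    · exact i3.const_mul _
    · exact (((i1.const_mul _).add (i2.const_mul _)).sub (integrable_const _)).add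
        (i3.const_mul _)
    · exact i4.const_mul _
  have hGz : G = 0 := by
    have h1 : ∫ x, G x ∂m = 0 := le_antisymm hGi (integral_nonneg hG0)
    have h2 : G =ᵐ[m] 0 := (integral_eq_zero_iff_of_nonneg hG0 (integrable_of_cont hGc)).1 h1
    exact (Continuous.ae_eq_iff_eq m hGc continuous_const).1 h2
  exact pointwise_eq hh (by linarith [htr x, htr (σ x)]) (hD x) (hlog x) (congrFun hGz x)

end Vale.Agent.P207.N3.H546
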