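import Vale.Agent.P207.N3.H546.FinIneq

/-!
# P207, line N3, package P9: `S = h Id` and the Riccati equation give constant curvature
-/

open MeasureTheory Filter Topology Set

noncomputable section

namespace Vale.Agent.P207.N3.H546

open Vale.Agent.P207.Q.H791 (RicC)

section Ric

variable {P : Type*} [TopologicalSpace P] [CompactSpace P] {φ : ℝ → P → P} {σ : P → P}
  {u v w k1 k2 k3 : C(P, ℝ)} {h : ℝ}

/-- derivative of a function along the flow, after the flip -/
theorem flip_deriv (hφσ : ∀ t x, σ (φ t x) = φ (-t) (σ x)) {F : P → ℝ} {d : P → ℝ}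
    (hF : ∀ p r, HasDerivAt (fun r => F (φ r p)) (d (φ r p)) r) (p : P) :
    HasDerivAt (fun r => F (σ (φ r p))) (-d (φ 0 (σ p))) 0 := by
  have h1 := hF (σ p) (-(0 : ℝ))
  have h2 : HasDerivAt (fun r : ℝ => -r) (-1) 0 := by simpa using (hasDerivAt_neg (0 : ℝ))
  have h3 := h1.scomp (0 : ℝ) h2
  have h4 : (fun r => F (σ (φ r p))) = (fun r => F (φ r (σ p))) ∘ fun r : ℝ => -r := by
    funext r
    simp only [Function.comp, hφσ]
  rw [h4]
  refine h3.congr_deriv ?_
  simp

/-- **Riccati.** -/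
theorem const_of_S (hR : RicC φ u v w k1 k2 k3) (hφ0 : ∀ x, φ 0 x = x)
    (hφσ : ∀ t x, σ (φ t x) = φ (-t) (σ x))
    (h1 : ∀ x, k1 (σ x) = k1 x) (h2 : ∀ x, k2 (σ x) = k2 x) (h3 : ∀ x, k3 (σ x) = k3 x)
    (hh : h ≠ 0)
    (hS : ∀ x, u x + u (σ x) = h ∧ v x + v (σ x) = 0 ∧ w x + w (σ x) = h) (x : P) :
    (u x = h / 2 ∧ v x = 0 ∧ w x = h / 2) ∧
      k1 x = (h / 2) ^ 2 ∧ k2 x = 0 ∧ k3 x = (h / 2) ^ 2 := by
  -- the algebraic relations at every point
  have key : ∀ x, u x = h / 2 ∧ v x = 0 ∧ w x = h / 2 := by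
    intro x
    have eu := flip_deriv (F := u) (d := fun p => k1 p - (u p * u p + v p * v p)) hφσ hR.du x
    have ev := flip_deriv (F := v) (d := fun p => k2 p - (u p * v p + v p * w p)) hφσ hR.dv x
    have ew := flip_deriv (F := w) (d := fun p => k3 p - (v p * v p + w p * w p)) hφσ hR.dw x
    have du := (hR.du x 0).add eu
    have dv := (hR.dv x 0).add ev
    have dw := (hR.dw x 0).add ew
    have cu : (fun r => u (φ r x)) + (fun r => u (σ (φ r x))) = fun _ => h := by
      funext r; exact (hS (φ r x)).1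
    have cv : (fun r => v (φ r x)) + (fun r => v (σ (φ r x))) = fun _ => 0 := by
      funext r; exact (hS (φ r x)).2.1
    have cw : (fun r => w (φ r x)) + (fun r => w (σ (φ r x))) = fun _ => h := by
      funext r; exact (hS (φ r x)).2.2
    rw [cu] at du
    rw [cv] at dv
    rw [cw] at dw
    have zu := du.unique (hasDerivAt_const (0 : ℝ) h)
    have zv := dv.unique (hasDerivAt_const (0 : ℝ) (0 : ℝ))
    have zw := dw.unique (hasDerivAt_const (0 : ℝ) h)
    simp only [hφ0, h1, h2, h3] at zu zv zw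
    obtain ⟨su, sv, sw⟩ := hS x
    have su' : u (σ x) = h - u x := by linarith
    have sv' : v (σ x) = -v x := by linarith
    have sw' : w (σ x) = h - w x := by linarith
    rw [su', sv'] at zu
    rw [su', sv', sw'] at zv
    rw [sv', sw'] at zw
    have a1 : h * (h - 2 * u x) = 0 := by linarith
    have a3 : h * (h - 2 * w x) = 0 := by linarith
    have a2 : h * (2 * v x) = 0 := by linarith
    have b1 := (mul_eq_zero.1 a1).resolve_left hh
    have b2 := (mul_eq_zero.1 a2).resolve_left hh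
    have b3 := (mul_eq_zero.1 a3).resolve_left hh
    exact ⟨by linarith, by linarith, by linarith⟩
  refine ⟨key x, ?_⟩
  have du := hR.du x 0
  have dv := hR.dv x 0
  have dw := hR.dw x 0
  have cu : (fun r => u (φ r x)) = fun _ => h / 2 := by funext r; exact (key (φ r x)).1
  have cv : (fun r => v (φ r x)) = fun _ => 0 := by funext r; exact (key (φ r x)).2.1
  have cw : (fun r => w (φ r x)) = fun _ => h / 2 := by funext r; exact (key (φ r x)).2.2
  rw [cu] at du
  rw [cv] at dv
  rw [cw] at dw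
  have zu := du.unique (hasDerivAt_const (0 : ℝ) (h / 2))
  have zv := dv.unique (hasDerivAt_const (0 : ℝ) (0 : ℝ))
  have zw := dw.unique (hasDerivAt_const (0 : ℝ) (h / 2))
  obtain ⟨ku, kv, kw⟩ := key x
  simp only [hφ0, ku, kv, kw] at zu zv zw
  exact ⟨by nlinarith, by linarith, by nlinarith⟩

end Ric

end Vale.Agent.P207.N3.H546
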